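import Vale.Agent.P331.H316.Rows

/-!
# The assembly of the step (row STEP of H316/Rows)
-/

set_option autoImplicit false
set_option linter.unusedSectionVars false
set_option linter.unusedVariables false

namespace Vale.Agent.P331.H923

open Finset Vale.Agent.P331.H489 Vale.Agent.P331.H316
open scoped Classical

theorem ind_nonneg (P : Prop) : 0 ≤ ind P := by unfold ind; split_ifs <;> norm_num

theorem ind_le_one (P : Prop) : ind P ≤ 1 := by unfold ind; split_ifs <;> norm_num

theorem ind_true {P : Prop} (h : P) : ind P = 1 := if_pos h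

theorem ind_false {P : Prop} (h : ¬ P) : ind P = 0 := if_neg h

theorem ind_mono {P Q : Prop} (h : P → Q) : ind P ≤ ind Q := by
  by_cases hP : P
  · rw [ind_true hP, ind_true (h hP)]
  · rw [ind_false hP]; exact ind_nonneg Q

theorem ind_not (P : Prop) : ind (¬ P) = 1 - ind P := by
  by_cases hP : P
  · rw [ind_true hP, ind_false (not_not.2 hP)]; norm_num
  · rw [ind_false hP, ind_true hP]; norm_num

theorem tw_nonneg {τ : ℝ} (h0 : 0 ≤ τ) (h1 : τ ≤ 1) (b : Bool) : 0 ≤ tw τ b := by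
  unfold tw; split_ifs <;> linarith

theorem tw_sum (τ : ℝ) : ∑ b, tw τ b = 1 := by
  rw [Fintype.sum_bool]; simp [tw]

section

variable {E : Type} [Fintype E]

theorem thin_mono {τ : ℝ} (h0 : 0 ≤ τ) (h1 : τ ≤ 1) {S : Finset E} {F G : Finset E → ℝ}
    (h : ∀ N ⊆ S, F N ≤ G N) : thin τ S F ≤ thin τ S G :=
  EX_mono (fun _ b => tw_nonneg h0 h1 b) fun c => h _ (filter_subset _ _)

theorem thin_const (τ : ℝ) (S : Finset E) (c : ℝ) : thin τ S (fun _ => c) = c :=
  EX_one _ (fun _ => tw_sum τ) c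

theorem thin_nonneg {τ : ℝ} (h0 : 0 ≤ τ) (h1 : τ ≤ 1) {S : Finset E} {F : Finset E → ℝ}
    (h : ∀ N ⊆ S, 0 ≤ F N) : 0 ≤ thin τ S F := by
  have := thin_mono h0 h1 (F := fun _ => (0 : ℝ)) (G := F) h
  rwa [thin_const] at this

theorem thin_add (τ : ℝ) (S : Finset E) (F G : Finset E → ℝ) :
    thin τ S (fun N => F N + G N) = thin τ S F + thin τ S G := EX_add _ _ _

theorem thin_sub (τ : ℝ) (S : Finset E) (F G : Finset E → ℝ) :
    thin τ S (fun N => F N - G N) = thin τ S F - thin τ S G := EX_sub _ _ _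

theorem thin_mul (τ : ℝ) (S : Finset E) (c : ℝ) (F : Finset E → ℝ) :
    thin τ S (fun N => c * F N) = c * thin τ S F := EX_mul _ _ _

theorem thin_congr {τ : ℝ} {S : Finset E} {F G : Finset E → ℝ}
    (h : ∀ N ⊆ S, F N = G N) : thin τ S F = thin τ S G := by
  unfold thin
  congr 1
  funext c
  exact h _ (filter_subset _ _)

theorem thin_not (τ : ℝ) (S : Finset E) (P : Finset E → Prop) :
    thin τ S (fun N => ind (¬ P N)) = 1 - thin τ S (fun N => ind (P N)) := by
  have h : (fun N => ind (¬ P N)) = fun N => (1 : ℝ) - ind (P N) := by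
    funext N; exact ind_not _
  rw [h, thin_sub, thin_const]

/-! ### expectations over labels -/

theorem disj_cls {L : Type} (κ : E → L) {l l' : L} (h : l ≠ l') :
    Disjoint (cls κ l) (cls κ l') := by
  rw [disjoint_left]
  intro e he he'
  simp only [cls, mem_filter, mem_univ, true_and] at he he'
  exact h (he.symm.trans he')

theorem w4_nonneg {p x s : ℝ} (hp : 0 ≤ p) (hx : 0 ≤ x) (hs : 0 ≤ s) (h1 : p + x + s ≤ 1)
    (l : L4) : 0 ≤ w4 p x s l := by
  cases l <;> simp only [w4] <;> linarith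

theorem w4_sum (p x s : ℝ) : ∑ l, w4 p x s l = 1 := by
  rw [sum_L4]; simp only [w4]; ring

theorem sum_L5 (f : L5 → ℝ) : ∑ l, f l = f .v + f .h + f .r + f .i + f .o := by
  have h : (univ : Finset L5) = {.v, .h, .r, .i, .o} := rfl
  rw [h, sum_insert (by decide), sum_insert (by decide), sum_insert (by decide),
    sum_insert (by decide), sum_singleton]
  ring

theorem w5_nonneg {p h r s : ℝ} (hp : 0 ≤ p) (hh : 0 ≤ h) (hr : 0 ≤ r) (hs : 0 ≤ s)
    (h1 : p + h + r + s ≤ 1) (l : L5) : 0 ≤ w5' p h r s l := by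
  cases l <;> simp only [w5'] <;> linarith

theorem w5_sum (p h r s : ℝ) : ∑ l, w5' p h r s l = 1 := by
  rw [sum_L5]; simp only [w5']; ring

theorem PR_mono {p x s : ℝ} (hp : 0 ≤ p) (hx : 0 ≤ x) (hs : 0 ≤ s) (h1 : p + x + s ≤ 1)
    {F G : Finset E → Finset E → Finset E → ℝ}
    (h : ∀ V R I, Disjoint V R → Disjoint V I → Disjoint R I → F V R I ≤ G V R I) :
    PR p x s F ≤ PR p x s G :=
  EX_mono (fun _ l => w4_nonneg hp hx hs h1 l) fun κ =>
    h _ _ _ (disj_cls κ (by decide)) (disj_cls κ (by decide)) (disj_cls κ (by decide))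

theorem PR_const (p x s c : ℝ) : PR (E := E) p x s (fun _ _ _ => c) = c :=
  EX_one _ (fun _ => w4_sum p x s) c

theorem PR_mul (p x s c : ℝ) (F : Finset E → Finset E → Finset E → ℝ) :
    PR p x s (fun V R I => c * F V R I) = c * PR p x s F := EX_mul _ _ _

theorem PR_congr {p x s : ℝ} {F G : Finset E → Finset E → Finset E → ℝ}
    (h : ∀ V R I, F V R I = G V R I) : PR p x s F = PR p x s G := by
  have : F = G := by funext V R I; exact h V R I
  rw [this]

theorem PR5_mono {p h r s : ℝ} (hp : 0 ≤ p) (hh : 0 ≤ h) (hr : 0 ≤ r) (hs : 0 ≤ s)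
    (h1 : p + h + r + s ≤ 1) {F G : Finset E → Finset E → Finset E → Finset E → ℝ}
    (hFG : ∀ V H R I, Disjoint V H → Disjoint V R → Disjoint V I → Disjoint H R →
      F V H R I ≤ G V H R I) : PR5 p h r s F ≤ PR5 p h r s G :=
  EX_mono (fun _ l => w5_nonneg hp hh hr hs h1 l) fun κ =>
    hFG _ _ _ _ (disj_cls κ (by decide)) (disj_cls κ (by decide)) (disj_cls κ (by decide))
      (disj_cls κ (by decide))

theorem PR5_const (p h r s c : ℝ) : PR5 (E := E) p h r s (fun _ _ _ _ => c) = c :=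
  EX_one _ (fun _ => w5_sum p h r s) c

theorem PR5_mul (p h r s c : ℝ) (F : Finset E → Finset E → Finset E → Finset E → ℝ) :
    PR5 p h r s (fun V H R I => c * F V H R I) = c * PR5 p h r s F := EX_mul _ _ _

theorem PR5_add (p h r s : ℝ) (F G : Finset E → Finset E → Finset E → Finset E → ℝ) :
    PR5 p h r s (fun V H R I => F V H R I + G V H R I) = PR5 p h r s F + PR5 p h r s G :=
  EX_add _ _ _

/-- forget the test set -/
def fgt : L5 → L4
  | .v => .o
  | .h => .v
  | .r => .s
  | .i => .i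
  | .o => .o

theorem PR5_forget (p h r s : ℝ) (F : Finset E → Finset E → Finset E → ℝ) :
    PR5 p h r s (fun _ H R I => F H R I) = PR h r s F := by
  have h0 := EX_push (E := E) fgt (fun _ => w5' p h r s)
    (fun κ => F (cls κ .v) (cls κ .s) (cls κ .i))
  have hc : ∀ (κ : E → L5) (l : L4) (l' : L5), (∀ x, fgt x = l ↔ x = l') →
      cls (fgt ∘ κ) l = cls κ l' := by
    intro κ l l' hx
    ext e
    simp only [cls, mem_filter, mem_univ, true_and, Function.comp]
    exact hx _
  have h1 : PR5 p h r s (fun _ H R I => F H R I) =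
      EX (fun _ : E => w5' p h r s) (fun κ => F (cls (fgt ∘ κ) .v) (cls (fgt ∘ κ) .s)
        (cls (fgt ∘ κ) .i)) := by
    unfold PR5
    congr 1
    funext κ
    rw [hc κ .v .h (by intro x; cases x <;> simp [fgt]),
      hc κ .s .r (by intro x; cases x <;> simp [fgt]),
      hc κ .i .i (by intro x; cases x <;> simp [fgt])]
  rw [h1, h0]
  unfold PR
  congr 1
  funext e l
  rw [sum_filter, sum_L5]
  cases l <;> simp [fgt, w5', w4]
  ring

theorem bb_mono (D : Finset E → Prop) {n t e lam : ℝ} {kap : ℕ} {R I A B G : Finset E}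
    (h : A ⊆ B) (hb : bb D n t e lam kap R I A G) : bb D n t e lam kap R I B G := by
  obtain ⟨Y, hY, h1, h2⟩ := hb
  exact ⟨Y, hY.trans h, h1, h2⟩

theorem BB_mono (D : Finset E → Prop) {g n t e lam zet : ℝ} (hg : 0 ≤ g) (hg1 : g ≤ 1) {kap : ℕ}
    {R I A B : Finset E} (h : A ⊆ B) (hb : BB D g n t e lam zet kap R I A) :
    BB D g n t e lam zet kap R I B := by
  unfold BB at *
  exact hb.trans (thin_mono hg hg1 fun G _ => ind_mono (bb_mono D h))

theorem fl_nonneg (D : Finset E → Prop) {n : ℝ} (hn : 0 ≤ n) (hn1 : n ≤ 1) (t e : ℝ)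
    (R I U : Finset E) : 0 ≤ fl D n t e R I U := thin_nonneg hn hn1 fun _ _ => ind_nonneg _

end

/-- the pointwise estimate of the step -/
theorem fl_drop {E : Type} [Fintype E] (D : Finset E → Prop) (P : Par) (R I : Finset E) (j : ℕ)
    (K U H R' : Finset E) (st : E → Finset E) (hn0 : 0 ≤ P.n) (hn1 : P.n ≤ 1)
    (heps : P.eps (j + 1) + P.kap j * P.dl j ≤ P.eps j)
    (hdr : ∀ U ⊆ K, ∀ W : Finset E, Disjoint K W → U.card ≤ P.kap j →
      (∀ b ∈ K \ core D P R I j K, ¬ rel D P.t (P.dl j) (P.kap j) I (st b) b W) →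
      psi D P.t I ((U ∩ core D P R I j K) ∪ W) ≤ psi D P.t I (U ∪ W) + P.kap j * P.dl j)
    (hU : U ⊆ K) (hc : U.card ≤ P.kap j) (hKH : Disjoint K H) (hKR : Disjoint K R') :
    fl D P.n P.t (P.eps j) R' I ((U ∩ core D P R I j K) ∪ H) ≤
      fl D P.n P.t (P.eps (j + 1)) R' I (H ∪ U) +
        thin P.n R' fun N => ind (∃ b ∈ K \ core D P R I j K,
          rel D P.t (P.dl j) (P.kap j) I (st b) b (H ∪ N)) := by
  unfold fl
  rw [← thin_add]
  refine thin_mono hn0 hn1 fun N hN => ?_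
  by_cases hr : ∃ b ∈ K \ core D P R I j K, rel D P.t (P.dl j) (P.kap j) I (st b) b (H ∪ N)
  · rw [ind_true hr]
    linarith [ind_le_one (P.eps j < psi D P.t I (U ∩ core D P R I j K ∪ H ∪ N)),
      ind_nonneg (P.eps (j + 1) < psi D P.t I (H ∪ U ∪ N))]
  · rw [ind_false hr, add_zero]
    refine ind_mono fun h => ?_
    push Not at hr
    have hKN : Disjoint K (H ∪ N) := by
      rw [disjoint_union_right]
      exact ⟨hKH, hKR.mono_right hN⟩
    have h1 := hdr U hU (H ∪ N) hKN hc hr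
    rw [union_assoc] at h
    have h2 : H ∪ U ∪ N = U ∪ (H ∪ N) := by
      rw [← union_assoc, union_comm U H]
    rw [h2]
    linarith

theorem rowSTEP (hSP : RowSPLIT) (hJST : RowJST) (hMK : RowMK) (hQJ : RowQJ) (hDR : RowDROP) :
    RowSTEP := by
  intro p s₁ s₂ B β lam' zet' P hp hs₁ hs₂ hsum hg0 hg4 hn0 hn4 hgn ht0 ht1 hβ hlam' hzet' hB0
    hps E _ D hD j hlj1 hlj hzj1 hzj hdl heps hB
  have hg1 : P.g ≤ 1 := by linarith
  have hn1 : P.n ≤ 1 := by linarith
  set h : ℝ := s₁ * P.g with hh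
  set r : ℝ := s₁ * (1 - P.g) with hr
  have hh0 : 0 < h := mul_pos hs₁ hg0
  have hr0 : 0 ≤ r := mul_nonneg hs₁.le (by linarith)
  have hhr : h + r = s₁ := by rw [hh, hr]; ring
  have hs5 : p + h + r + s₂ ≤ 1 := by linarith
  -- the bad event
  let Bd : Finset E → Finset E → Finset E → Prop := fun V R I =>
    Disjoint V I ∧ ∃ X ⊆ V, Bad D P R I j X
  have hX : ∀ V R I, ∃ X : Finset E, X ⊆ V ∧ Disjoint X I ∧ (Bd V R I → Bad D P R I j X) := by
    intro V R I
    by_cases hb : Bd V R I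
    · obtain ⟨hd, X, hX, hbad⟩ := hb
      exact ⟨X, hX, hd.mono_left hX, fun _ => hbad⟩
    · exact ⟨∅, empty_subset _, disjoint_empty_left _, fun h => absurd h hb⟩
  choose K hKV hKI hKB using hX
  have hst : ∀ V R I, ∃ st : E → Finset E,
      (∀ b ∈ K V R I \ core D P R I j (K V R I), b ∈ st b ∧ st b ⊆ K V R I ∧
        ¬ sig D P R I j (st b) b) ∧
      ∀ U ⊆ K V R I, ∀ W : Finset E, Disjoint (K V R I) W → U.card ≤ P.kap j →
        (∀ b ∈ K V R I \ core D P R I j (K V R I),
          ¬ rel D P.t (P.dl j) (P.kap j) I (st b) b W) →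
        psi D P.t I ((U ∩ core D P R I j (K V R I)) ∪ W) ≤
          psi D P.t I (U ∪ W) + P.kap j * P.dl j :=
    fun V R I => hDR E D hD P R I j (K V R I) ht0 ht1 hg0.le hg1 hn0.le hn1 hdl (hKI V R I)
  choose st hst1 hst2 using hst
  have hBst := hB K st hKV fun V R I b hb => ⟨(hst1 V R I b hb).2.1, (hst1 V R I b hb).2.2⟩
  -- the family
  let Fam : Finset E → Finset E → Finset E → Prop := fun R I A =>
    BB D (P.g / (1 - P.g)) (P.n * (1 - P.g) / (1 - 2 * P.g)) P.t (P.eps (j + 1)) lam' zet'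
      (P.kap (j + 1)) R I A
  have hgg0 : 0 ≤ P.g / (1 - P.g) := div_nonneg hg0.le (by linarith)
  have hgg1 : P.g / (1 - P.g) ≤ 1 := by
    rw [div_le_one (by linarith)]; linarith
  have hFam : ∀ R I A B, A ⊆ B → Fam R I A → Fam R I B := fun R I A B hAB hA =>
    BB_mono D hgg0 hgg1 hAB hA
  let Ast : Finset E → Finset E → Finset E → Finset E → Prop := fun V H R I =>
    Bd V (H ∪ R) I ∧ Fam R I (K V (H ∪ R) I)
  obtain ⟨U, hU1, hU2⟩ := hJST E p h r s₂ hp hh0.le hr0 hs₂ hs5 Fam hFam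
    (fun V H R I => K V (H ∪ R) I) Ast (fun V H R I hA => ⟨hKV _ _ _, hA.2⟩)
  -- the five functions
  let F0 : Finset E → Finset E → Finset E → Finset E → ℝ := fun V H R I =>
    ind (Bd V (H ∪ R) I) * ind (¬ bb D P.n P.t (P.eps j) (P.lam j) (P.kap j) (H ∪ R) I
      (core D P (H ∪ R) I j (K V (H ∪ R) I)) H)
  let F1 : Finset E → Finset E → Finset E → Finset E → ℝ := fun V H R I =>
    ind (Bd V (H ∪ R) I) * ind (¬ Fam R I (K V (H ∪ R) I))
  let F2 : Finset E → Finset E → Finset E → Finset E → ℝ := fun V H R I =>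
    ind (Ast V H R I) * (h / p) ^ (U V H R I).card * 1
  let G3 : Finset E → Finset E → Finset E → ℝ := fun X R I =>
    ind (Fam R I X) * fl D P.n P.t (P.eps (j + 1)) R I X
  let F3 : Finset E → Finset E → Finset E → Finset E → ℝ := fun V H R I =>
    ind (Ast V H R I) * (h / p) ^ (U V H R I).card * G3 (H ∪ U V H R I) R I
  let F4 : Finset E → Finset E → Finset E → Finset E → ℝ := fun V H R I =>
    thin P.n R fun N => ind (∃ b ∈ K V (H ∪ R) I \ core D P (H ∪ R) I j (K V (H ∪ R) I),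
      rel D P.t (P.dl j) (P.kap j) I (st V (H ∪ R) I b) b (H ∪ N))
  have hG3 : ∀ X R I, 0 ≤ G3 X R I := fun X R I =>
    mul_nonneg (ind_nonneg _) (fl_nonneg D hn0.le hn1 _ _ _ _ _)
  -- step 1
  have step1 : P.zet j * PR (E := E) p s₁ s₂ (fun V R I => ind (∃ X ⊆ V, Bad D P R I j X)) ≤
      PR5 p h r s₂ F0 := by
    rw [← hSP E p s₁ s₂ P.g F0, ← PR_mul]
    refine PR_mono hp.le hs₁.le hs₂ hsum fun V R I hVR hVI hRI => ?_
    have hF : (thin P.g R fun H => F0 V H (R \ H) I) = thin P.g R fun H =>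
        ind (Bd V R I) * ind (¬ bb D P.n P.t (P.eps j) (P.lam j) (P.kap j) R I
          (core D P R I j (K V R I)) H) := by
      refine thin_congr fun H hH => ?_
      simp only [F0, union_sdiff_of_subset hH]
    rw [hF, thin_mul]
    by_cases hb : ∃ X ⊆ V, Bad D P R I j X
    · have hBd : Bd V R I := ⟨hVI, hb⟩
      rw [ind_true hb, ind_true hBd, mul_one, one_mul, thin_not]
      have h1 := (hKB V R I hBd).2
      unfold BBj BB at h1
      push Not at h1
      linarith
    · rw [ind_false hb, mul_zero]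
      exact mul_nonneg (ind_nonneg _) (thin_nonneg hg0.le hg1 fun _ _ => ind_nonneg _)
  -- step 2
  have step2 : PR5 p h r s₂ F1 ≤ (P.zet (j + 1) + P.lam (j + 1) / lam') / zet' := by
    rw [← hSP E p s₁ s₂ P.g F1, ← PR_const (E := E) p s₁ s₂
      ((P.zet (j + 1) + P.lam (j + 1) / lam') / zet')]
    refine PR_mono hp.le hs₁.le hs₂ hsum fun V R I hVR hVI hRI => ?_
    have hF : (thin P.g R fun H => F1 V H (R \ H) I) = thin P.g R fun H =>
        ind (Bd V R I) * ind (¬ Fam (R \ H) I (K V R I)) := by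
      refine thin_congr fun H hH => ?_
      simp only [F1, union_sdiff_of_subset hH]
    rw [hF, thin_mul]
    have hpos : 0 ≤ (P.zet (j + 1) + P.lam (j + 1) / lam') / zet' := by positivity
    by_cases hb : Bd V R I
    · rw [ind_true hb, one_mul]
      exact hMK E D P.g P.n P.t (P.eps (j + 1)) (P.lam (j + 1)) (P.zet (j + 1)) lam' zet'
        (P.kap (j + 1)) hg0.le (by linarith) hn0.le (by nlinarith) ht0 ht1 hlj1 hzj1 hlam' hzet'
        R I (K V R I) (hKB V R I hb).1
    · rw [ind_false hb, zero_mul]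
      exact hpos
  -- step 3
  have hone : PR5 p h r s₂ F2 ≤ 1 := by
    have h1 := hU2 (fun _ _ _ => 1) (fun _ _ _ => zero_le_one)
    rwa [PR5_const] at h1
  have hthree : PR5 p h r s₂ F3 ≤ zet' + β + 16 ^ P.kap (j + 1) * lam' / β ^ 4 := by
    have h1 := hU2 G3 hG3
    refine h1.trans ?_
    rw [PR5_forget]
    exact hQJ E D hD s₁ s₂ P.g P.n P.t (P.eps (j + 1)) lam' zet' β (P.kap (j + 1)) hs₁.le hs₂
      (by linarith) hg0.le hg4 hn0 hn4 hgn ht0 ht1 hlam'.le hzet'.le hβ
  have hfour : PR5 p h r s₂ F4 ≤ B := by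
    rw [← hSP E p s₁ s₂ P.g F4]
    refine le_trans (le_of_eq ?_) hBst
    refine PR_congr fun V R I => thin_congr fun H hH => ?_
    simp only [F4, union_sdiff_of_subset hH]
  -- the pointwise inequality
  have hpw : ∀ V H R I, Disjoint V H → Disjoint V R → Disjoint V I → Disjoint H R →
      F0 V H R I ≤ F1 V H R I + (p / h) ^ (P.kap j + 1) * F2 V H R I +
        (P.lam j)⁻¹ * (F3 V H R I + F4 V H R I) := by
    intro V H R I hVH hVR hVI hHR
    have hF10 : 0 ≤ F1 V H R I := mul_nonneg (ind_nonneg _) (ind_nonneg _)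
    have hhp : 1 ≤ h / p := by rw [one_le_div hp]; exact hps
    have hF20 : 0 ≤ F2 V H R I :=
      mul_nonneg (mul_nonneg (ind_nonneg _) (pow_nonneg (by linarith) _)) zero_le_one
    have hF30 : 0 ≤ F3 V H R I :=
      mul_nonneg (mul_nonneg (ind_nonneg _) (pow_nonneg (by linarith) _)) (hG3 _ _ _)
    have hF40 : 0 ≤ F4 V H R I := thin_nonneg hn0.le hn1 fun _ _ => ind_nonneg _
    have hph : 0 ≤ (p / h) ^ (P.kap j + 1) := by positivity
    have hli : 0 ≤ (P.lam j)⁻¹ := by positivity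
    have h20 : 0 ≤ (p / h) ^ (P.kap j + 1) * F2 V H R I := mul_nonneg hph hF20
    have h30 : 0 ≤ (P.lam j)⁻¹ * (F3 V H R I + F4 V H R I) :=
      mul_nonneg hli (add_nonneg hF30 hF40)
    have hF0le : F0 V H R I ≤ 1 :=
      mul_le_one₀ (ind_le_one _) (ind_nonneg _) (ind_le_one _)
    by_cases hb : Bd V (H ∪ R) I
    swap
    · have : F0 V H R I = 0 := by simp only [F0, ind_false hb, zero_mul]
      linarith
    by_cases hf : Fam R I (K V (H ∪ R) I)
    swap
    · have : F1 V H R I = 1 := by simp only [F1, ind_true hb, ind_true hf, mul_one]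
      linarith
    have hA : Ast V H R I := ⟨hb, hf⟩
    obtain ⟨hUK, hUF⟩ := hU1 V H R I hVH hA
    by_cases hc : P.kap j < (U V H R I).card
    · have h2 : 1 ≤ (p / h) ^ (P.kap j + 1) * F2 V H R I := by
        have h3 : F2 V H R I = (h / p) ^ (U V H R I).card := by
          simp only [F2, ind_true hA, one_mul, mul_one]
        rw [h3]
        have h4 : (h / p) ^ (P.kap j + 1) ≤ (h / p) ^ (U V H R I).card :=
          pow_le_pow_right₀ hhp hc
        have h5 : (p / h) ^ (P.kap j + 1) * (h / p) ^ (P.kap j + 1) = 1 := by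
          rw [← mul_pow]
          have : p / h * (h / p) = 1 := by field_simp
          rw [this, one_pow]
        calc (1 : ℝ) = (p / h) ^ (P.kap j + 1) * (h / p) ^ (P.kap j + 1) := h5.symm
          _ ≤ _ := mul_le_mul_of_nonneg_left h4 hph
      linarith
    · push Not at hc
      by_cases hbb : bb D P.n P.t (P.eps j) (P.lam j) (P.kap j) (H ∪ R) I
          (core D P (H ∪ R) I j (K V (H ∪ R) I)) H
      · have : F0 V H R I = 0 := by
          simp only [F0, ind_false (not_not.2 hbb), mul_zero]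
        linarith
      · -- the main case
        have hKH : Disjoint (K V (H ∪ R) I) H := hVH.mono_left (hKV _ _ _)
        have hKR : Disjoint (K V (H ∪ R) I) R := hVR.mono_left (hKV _ _ _)
        have h1 := fl_drop D P (H ∪ R) I j (K V (H ∪ R) I) (U V H R I) H R (st V (H ∪ R) I)
          hn0.le hn1 heps (hst2 V (H ∪ R) I) hUK hc hKH hKR
        have h2 : P.lam j < fl D P.n P.t (P.eps j) R I
            (U V H R I ∩ core D P (H ∪ R) I j (K V (H ∪ R) I) ∪ H) := by
          by_contra h3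
          push Not at h3
          apply hbb
          refine ⟨U V H R I ∩ core D P (H ∪ R) I j (K V (H ∪ R) I), inter_subset_right,
            (card_le_card inter_subset_left).trans hc, ?_⟩
          have h4 : (H ∪ R) \ H = R := by
            rw [union_sdiff_left]
            exact sdiff_eq_self_of_disjoint hHR.symm
          rw [h4]
          exact h3
        have h5 : fl D P.n P.t (P.eps (j + 1)) R I (H ∪ U V H R I) ≤ F3 V H R I := by
          have h6 : F3 V H R I = (h / p) ^ (U V H R I).card *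
              fl D P.n P.t (P.eps (j + 1)) R I (H ∪ U V H R I) := by
            simp only [F3, G3, ind_true hA, ind_true hUF, one_mul]
          rw [h6]
          have h7 : 1 ≤ (h / p) ^ (U V H R I).card := one_le_pow₀ hhp
          have h8 := fl_nonneg D hn0.le hn1 P.t (P.eps (j + 1)) R I (H ∪ U V H R I)
          nlinarith
        have h9 : P.lam j ≤ F3 V H R I + F4 V H R I := by
          have : F4 V H R I = thin P.n R fun N =>
              ind (∃ b ∈ K V (H ∪ R) I \ core D P (H ∪ R) I j (K V (H ∪ R) I),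
                rel D P.t (P.dl j) (P.kap j) I (st V (H ∪ R) I b) b (H ∪ N)) := rfl
          rw [this]
          linarith
        have h10 : 1 ≤ (P.lam j)⁻¹ * (F3 V H R I + F4 V H R I) := by
          rw [inv_mul_eq_div, one_le_div hlj]
          exact h9
        linarith
  have hsumm : PR5 p h r s₂ F0 ≤ PR5 p h r s₂ F1 + (p / h) ^ (P.kap j + 1) * PR5 p h r s₂ F2 +
      (P.lam j)⁻¹ * (PR5 p h r s₂ F3 + PR5 p h r s₂ F4) := by
    refine (PR5_mono hp.le hh0.le hr0 hs₂ hs5 hpw).trans (le_of_eq ?_)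
    rw [PR5_add p h r s₂ (fun V H R I => F1 V H R I + (p / h) ^ (P.kap j + 1) * F2 V H R I)
      (fun V H R I => (P.lam j)⁻¹ * (F3 V H R I + F4 V H R I)),
      PR5_add p h r s₂ F1 (fun V H R I => (p / h) ^ (P.kap j + 1) * F2 V H R I),
      PR5_mul, PR5_mul, PR5_add]
  refine step1.trans (hsumm.trans ?_)
  have e1 : (p / h) ^ (P.kap j + 1) * PR5 p h r s₂ F2 ≤ (p / h) ^ (P.kap j + 1) :=
    mul_le_of_le_one_right (by positivity) hone
  have e2 : (P.lam j)⁻¹ * (PR5 p h r s₂ F3 + PR5 p h r s₂ F4) ≤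
      (zet' + β + 16 ^ P.kap (j + 1) * lam' / β ^ 4 + B) / P.lam j := by
    rw [inv_mul_eq_div]
    exact div_le_div_of_nonneg_right (add_le_add hthree hfour) hlj.le
  linarith

end Vale.Agent.P331.H923
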