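import Vale.Agent.P331.H316.Rows
import Vale.Agent.P331.H830.Bes

/-!
# Rows BES and ENT of H316/Rows
-/

set_option autoImplicit false
set_option linter.unusedSectionVars false
set_option linter.unusedVariables false

namespace Vale.Agent.P331.H923

open Finset Vale.Agent.P331.H489 Vale.Agent.P331
open scoped Classical

theorem tw_eq_bw {E : Type} (Θ : ℝ) :
    (fun _ : E => H316.tw Θ) = H830.bw (fun _ : E => Θ) := by
  funext e l
  rfl

theorem rowBES : H316.RowBES := by
  intro E _ D hD Θ h0 h1
  let F : (E → Bool) → ℝ := fun ω => H316.ind (D (univ.filter fun e => ω e = true))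
  have h := H830.bessel (q := fun _ : E => Θ) (fun _ => h0) (fun _ => h1) F
  have hJ : ∀ b, H316.Jn D Θ b = EX (H830.bw fun _ : E => Θ) (H830.dif F b) := by
    intro b
    unfold H316.Jn H316.thin
    rw [tw_eq_bw]
    congr 1
    funext ω
    have e1 : (univ.filter fun e => Function.update ω b true e = true) =
        insert b (univ.filter fun e => ω e = true) := by
      ext e
      rw [mem_filter, mem_insert, mem_filter]
      by_cases h : e = b
      · subst h; simp
      · simp [h]
    have e2 : (univ.filter fun e => Function.update ω b false e = true) =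
        (univ.filter fun e => ω e = true).erase b := by
      ext e
      rw [mem_filter, mem_erase, mem_filter]
      by_cases h : e = b
      · subst h; simp
      · simp [h]
    simp only [H830.dif, F]
    rw [e1, e2]
    generalize (univ.filter fun e => ω e = true) = U
    unfold H316.Piv
    by_cases ha : D (insert b U)
    · by_cases hb : D (U.erase b)
      · simp [H316.ind, ha, hb]
      · simp [H316.ind, ha, hb]
    · have hb : ¬ D (U.erase b) := fun hc =>
        ha (hD _ _ ((erase_subset _ _).trans (subset_insert _ _)) hc)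
      simp [H316.ind, ha, hb]
  have hF1 : EX (H830.bw fun _ : E => Θ) (fun ω => F ω ^ 2) ≤ 1 := by
    refine (EX_mono (H830.bw_nonneg (fun _ => h0) fun _ => h1) (G := fun _ => 1) fun ω => ?_).trans
      (le_of_eq (EX_one _ (H830.sum_bw _) 1))
    simp only [F, H316.ind]
    split_ifs <;> norm_num
  simp only [← hJ] at h
  rw [← mul_sum] at h
  nlinarith [sq_nonneg (EX (H830.bw fun _ : E => Θ) F)]

section ent

variable {E : Type} [Fintype E] {M : Matroid E} {lt : E → E → Prop}

theorem piv_unique' (hlt : IsStrictTotalOrder E lt) {b z₁ z₂ : E}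
    {P : E → Prop} (hz₁ : P z₁) (hz₂ : P z₂) (h₁ : H830.piv M lt z₁ b P)
    (h₂ : H830.piv M lt z₂ b P) : z₁ = z₂ := by
  by_contra hne
  have key : ∀ x y : E, P x → lt y x → H830.piv M lt x b P → H830.piv M lt y b P → False := by
    intro x y hx hyx h1 h2
    have hxb : x ≠ b := by
      rintro rfl
      exact hlt.irrefl x (H830.piv_lt h1)
    have hcl : x ∈ M.closure (insert b {e | lt x e ∧ (e ≠ b ∧ P e)}) := by
      refine M.closure_subset_closure ?_ h1.1
      rintro e ⟨h3, h4⟩
      by_cases heb : e = b
      · exact Or.inl heb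
      · exact Or.inr ⟨h3, heb, h4.resolve_left heb⟩
    have hb : b ∈ M.closure (insert x {e | lt x e ∧ (e ≠ b ∧ P e)}) :=
      (M.closure_exchange ⟨hcl, h1.2⟩).1
    have hb2 : b ∈ M.closure {e | lt y e ∧ (e ≠ b ∧ P e)} := by
      refine M.closure_subset_closure ?_ hb
      rintro e (rfl | ⟨h3, h4⟩)
      · exact ⟨hyx, hxb, hx⟩
      · exact ⟨hlt.trans _ _ _ hyx h3, h4⟩
    apply h2.2
    have hsub : {e | lt y e ∧ (e = b ∨ P e)} ∩ M.E ⊆
        M.closure {e | lt y e ∧ (e ≠ b ∧ P e)} := by
      rintro e ⟨⟨h3, h4⟩, hE⟩
      by_cases heb : e = b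
      · rw [heb]; exact hb2
      · exact M.mem_closure_of_mem' ⟨h3, heb, h4.resolve_left heb⟩ hE
    have h5 := h2.1
    unfold cov at h5
    rw [← M.closure_inter_ground] at h5
    exact M.closure_subset_closure_of_subset_closure hsub h5
  by_cases h12 : lt z₁ z₂
  · exact key z₂ z₁ hz₂ h12 h₂ h₁
  · by_cases h21 : lt z₂ z₁
    · exact key z₁ z₂ hz₁ h21 h₁ h₂
    · exact hne (hlt.trichotomous z₁ z₂ h12 h21)

theorem entrance' (hlt : IsStrictTotalOrder E lt) {q : E → ℝ}
    (h0 : ∀ e, 0 ≤ q e) (h1 : ∀ e, q e ≤ 1) (b : E) :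
    ∑ z, q z * EX (H830.bw q)
      (fun ω => if H830.piv M lt z b (fun e => ω e = true) then 1 else 0) ≤ 1 := by
  have hz : ∀ z, q z * EX (H830.bw q)
      (fun ω => if H830.piv M lt z b (fun e => ω e = true) then 1 else 0) =
      EX (H830.bw q) (fun ω => if ω z = true then
        (if H830.piv M lt z b (fun e => ω e = true) then (1 : ℝ) else 0) else 0) := by
    intro z
    rw [H830.EX_indep]
    intro ω l
    have : H830.piv M lt z b (fun e => Function.update ω z l e = true) ↔
        H830.piv M lt z b (fun e => ω e = true) := by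
      refine H830.piv_congr fun e he => ?_
      have hne : e ≠ z := by rintro rfl; exact hlt.irrefl e he
      rw [Function.update_of_ne hne]
    simp only [this]
  simp only [hz]
  rw [← EX_sum univ (H830.bw q) (fun z ω => if ω z = true then
        (if H830.piv M lt z b (fun e => ω e = true) then (1 : ℝ) else 0) else 0)]
  refine (EX_mono (H830.bw_nonneg h0 h1) (G := fun _ => 1) fun ω => ?_).trans
    (le_of_eq (EX_one _ (H830.sum_bw q) 1))
  have h2 : ∀ z, (if ω z = true then
      (if H830.piv M lt z b (fun e => ω e = true) then (1 : ℝ) else 0)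
      else 0) = if ω z = true ∧ H830.piv M lt z b (fun e => ω e = true) then 1 else 0 := by
    intro z
    by_cases h3 : ω z = true
    · simp [h3]
    · simp [h3]
  simp only [h2]
  rw [← sum_filter, sum_const, nsmul_eq_mul, mul_one]
  have h4 : (univ.filter fun z =>
      ω z = true ∧ H830.piv M lt z b (fun e => ω e = true)).card ≤ 1 := by
    refine card_le_one.2 fun x hx y hy => ?_
    obtain ⟨_, hx1, hx2⟩ := mem_filter.1 hx
    obtain ⟨_, hy1, hy2⟩ := mem_filter.1 hy
    exact piv_unique' hlt (P := fun e => ω e = true) hx1 hy1 hx2 hy2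
  exact_mod_cast h4

end ent

theorem rowENT : H316.RowENT := by
  intro E _ M lt hlt Θ h0 h1 b
  have h := entrance' (M := M) hlt (q := fun _ => Θ) (fun _ => h0) (fun _ => h1) b
  rw [← mul_sum] at h
  have hJ : ∀ z, H316.Jn (fun U => cov M lt z fun e => e ∈ U) Θ b =
      EX (H830.bw fun _ : E => Θ)
        (fun ω => if H830.piv M lt z b (fun e => ω e = true) then 1 else 0) := by
    intro z
    unfold H316.Jn H316.thin
    rw [tw_eq_bw]
    congr 1
    funext ω
    have : H316.Piv (fun U => cov M lt z fun e => e ∈ U) b (univ.filter fun e => ω e = true) ↔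
        H830.piv M lt z b (fun e => ω e = true) := by
      unfold H316.Piv H830.piv
      beta_reduce
      have e1 : (fun e => e ∈ insert b (univ.filter fun e => ω e = true)) =
          fun e => e = b ∨ ω e = true := by
        funext e; simp
      have e2 : (fun e => e ∈ (univ.filter fun e => ω e = true).erase b) =
          fun e => e ≠ b ∧ ω e = true := by
        funext e; simp
      rw [e1, e2]
    by_cases hp : H830.piv M lt z b (fun e => ω e = true)
    · rw [if_pos hp]
      exact if_pos (this.2 hp)
    · rw [if_neg hp]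
      exact if_neg fun hc => hp (this.1 hc)
  simp only [hJ]
  refine le_trans (mul_le_mul_of_nonneg_left ?_ h0) h
  refine sum_le_sum_of_subset_of_nonneg (erase_subset _ _) fun z _ _ => ?_
  exact EX_nonneg (H830.bw_nonneg (fun _ => h0) fun _ => h1) fun _ => by split_ifs <;> norm_num

end Vale.Agent.P331.H923
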