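import Vale.Agent.P331.H923.Step

/-!
# The elements outside the core (row CORE of H316/Rows)
-/

set_option autoImplicit false
set_option linter.unusedSectionVars false
set_option linter.unusedVariables false

namespace Vale.Agent.P331.H923

open Finset Vale.Agent.P331.H489 Vale.Agent.P331.H316
open scoped Classical

section

variable {E : Type} [Fintype E]

/-- the label after drawing the pool and the noise -/
def mrg (x : (L4 × Bool) × Bool) : L4 :=
  if x.1.1 = .s then (if x.1.2 = true ∨ x.2 = true then .s else .o) else x.1.1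

theorem mem_cls {L : Type} {κ : E → L} {l : L} {e : E} : e ∈ cls κ l ↔ κ e = l := by
  simp [cls]

theorem PR_thin_thin (p s₁ s₂ g n : ℝ) (F : Finset E → Finset E → Finset E → ℝ) :
    PR p s₁ s₂ (fun V R I => thin g R fun G => thin n (R \ G) fun N => F V (G ∪ N) I) =
      PR p (s₁ * (g + (1 - g) * n)) s₂ F := by
  let A : (E → L4) → (E → Bool) → (E → Bool) → ℝ := fun κ c d =>
    F (cls κ .v) (((cls κ .s).filter fun e => c e = true) ∪
      ((cls κ .s \ (cls κ .s).filter fun e => c e = true).filter fun e => d e = true))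
      (cls κ .i)
  have h1 : PR p s₁ s₂ (fun V R I => thin g R fun G => thin n (R \ G) fun N => F V (G ∪ N) I) =
      EX (fun _ : E => w4 p s₁ s₂) fun κ => EX (fun _ : E => tw g) fun c =>
        EX (fun _ : E => tw n) fun d => A κ c d := rfl
  rw [h1, ← EX_prod (fun _ : E => w4 p s₁ s₂) (fun _ : E => tw g)
    (fun κ c => EX (fun _ : E => tw n) fun d => A κ c d),
    ← EX_prod (fun (_ : E) (x : L4 × Bool) => w4 p s₁ s₂ x.1 * tw g x.2) (fun _ : E => tw n)
    (fun τ d => A (fun e => (τ e).1) (fun e => (τ e).2) d)]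
  have h2 : ∀ τ : E → (L4 × Bool) × Bool,
      A (fun e => (τ e).1.1) (fun e => (τ e).1.2) (fun e => (τ e).2) =
        F (cls (mrg ∘ τ) .v) (cls (mrg ∘ τ) .s) (cls (mrg ∘ τ) .i) := by
    intro τ
    have hm : ∀ e, (mrg ∘ τ) e = mrg (τ e) := fun _ => rfl
    have hv : cls (fun e => (τ e).1.1) L4.v = cls (mrg ∘ τ) .v := by
      ext e
      rw [mem_cls, mem_cls, hm]
      generalize τ e = x
      obtain ⟨⟨l, c⟩, d⟩ := x
      cases l <;> cases c <;> cases d <;> simp [mrg]
    have hi : cls (fun e => (τ e).1.1) L4.i = cls (mrg ∘ τ) .i := by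
      ext e
      rw [mem_cls, mem_cls, hm]
      generalize τ e = x
      obtain ⟨⟨l, c⟩, d⟩ := x
      cases l <;> cases c <;> cases d <;> simp [mrg]
    have hs : ((cls (fun e => (τ e).1.1) L4.s).filter fun e => (τ e).1.2 = true) ∪
        ((cls (fun e => (τ e).1.1) L4.s \
          (cls (fun e => (τ e).1.1) L4.s).filter fun e => (τ e).1.2 = true).filter
            fun e => (τ e).2 = true) = cls (mrg ∘ τ) .s := by
      ext e
      rw [mem_union, mem_filter, mem_filter, mem_sdiff, mem_filter, mem_cls, mem_cls, hm]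
      generalize τ e = x
      obtain ⟨⟨l, c⟩, d⟩ := x
      cases l <;> cases c <;> cases d <;> simp [mrg]
    simp only [A]
    rw [hv, hi, hs]
  have h3 := EX_push (E := E) mrg
    (fun (_ : E) (x : (L4 × Bool) × Bool) => w4 p s₁ s₂ x.1.1 * tw g x.1.2 * tw n x.2)
    (fun κ => F (cls κ .v) (cls κ .s) (cls κ .i))
  simp only [h2]
  rw [h3]
  unfold PR
  congr 1
  funext e l
  rw [sum_filter, Fintype.sum_prod_type, Fintype.sum_prod_type, sum_L4]
  simp only [Fintype.sum_bool]
  cases l <;> simp [mrg, w4, tw]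
  all_goals ring

/-- the event of the hypercontractive estimate -/
def hcev (D : Finset E → Prop) (t dl : ℝ) (kap : ℕ) (b : E) (V X I : Finset E) : Prop :=
  ∃ U ⊆ V, U.card ≤ kap ∧ dl ≤ thin t I (fun N => ind (Piv D b (U ∪ X ∪ N)))

theorem hcev_of_rel {D : Finset E → Prop} {t dl : ℝ} {kap : ℕ} {I X V : Finset E} {b : E}
    {W : Finset E} (hX : X ⊆ V) (h : rel D t dl kap I X b W) : hcev D t dl kap b V W I := by
  obtain ⟨U, hU, hc, hp⟩ := h
  exact ⟨U, (hU.trans (erase_subset _ _)).trans hX, hc, hp⟩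

theorem sq_ind (P : Prop) : ind P ^ 2 = ind P := by
  unfold ind; split_ifs <;> norm_num

theorem PR_sum {ι : Type*} (s : Finset ι) (p x s' : ℝ)
    (F : ι → Finset E → Finset E → Finset E → ℝ) :
    PR p x s' (fun V R I => ∑ i ∈ s, F i V R I) = ∑ i ∈ s, PR p x s' (F i) := EX_sum _ _ _

theorem thin_sum {ι : Type*} (s : Finset ι) (τ : ℝ) (S : Finset E) (F : ι → Finset E → ℝ) :
    thin τ S (fun N => ∑ i ∈ s, F i N) = ∑ i ∈ s, thin τ S (F i) := EX_sum _ _ _

end

theorem hc_use (hHC : RowHC) {q : ℕ} {p s₁ s₂ th : ℝ} {P : Par} (hq : 1 ≤ q) (hp : 0 ≤ p)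
    (hs₁ : 0 ≤ s₁) (hs₂ : 0 ≤ s₂) (hsum : p + s₁ + s₂ ≤ 1) (hg : 0 ≤ P.g) (hg1 : P.g ≤ 1)
    (hn : 0 ≤ P.n) (hn1 : P.n ≤ 1) (ht : 0 ≤ P.t) (ht1 : P.t ≤ 1) (hth : 0 ≤ th) (hth1 : th ≤ 1)
    (hone : OneC q p (xr s₁ P) s₂ P.t th) {E : Type} [Fintype E] (D : Finset E → Prop) (b : E)
    (kap : ℕ) {dl : ℝ} (hdl : 0 ≤ dl) :
    (th ^ kap * dl) ^ (2 * q) * PR (E := E) p s₁ s₂ (fun V R I => thin P.g R fun G =>
      thin P.n (R \ G) fun N => ind (hcev D P.t dl kap b V (G ∪ N) I)) ≤
      Jn D (Th s₁ s₂ P) b ^ q := by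
  rw [PR_thin_thin p s₁ s₂ P.g P.n (fun V X I => ind (hcev D P.t dl kap b V X I))]
  have hx0 : 0 ≤ xr s₁ P := by
    unfold xr
    have : 0 ≤ (1 - P.g) * P.n := mul_nonneg (by linarith) hn
    positivity
  have hx1 : xr s₁ P ≤ s₁ := by
    unfold xr
    have : P.g + (1 - P.g) * P.n ≤ 1 := by nlinarith
    nlinarith
  have h := hHC q p (xr s₁ P) s₂ P.t th hq hp hx0 hs₂ (by linarith) ht ht1 hth hth1 hone E
    (fun U => ind (Piv D b U)) (fun U => ind_nonneg _) kap dl hdl
  have h2 : (fun U : Finset E => ind (Piv D b U) ^ 2) = fun U => ind (Piv D b U) := by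
    funext U; exact sq_ind _
  rw [h2] at h
  exact h

theorem rowCORE (hHC : RowHC) (hBES : RowBES) : RowCORE := by
  intro q p s₁ s₂ th P hq hp hs₁ hs₂ hsum hg hg1 hn hn1 ht ht1 hth hth1 hT0 hT1 hone E _ D hD j ga
    hga hdl heta K st hK hst
  set T := Th s₁ s₂ P with hT
  have hTT : 0 < T * (1 - T) := mul_pos hT0 (by linarith)
  have hbes := hBES E D hD T hT0.le hT1.le
  have hJ0 : ∀ b : E, 0 ≤ Jn D T b := fun b => thin_nonneg hT0.le hT1.le fun _ _ => ind_nonneg _
  have hS : ∑ b : E, Jn D T b ^ 2 ≤ 1 / (T * (1 - T)) := by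
    rw [le_div_iff₀ hTT]; linarith
  set c : ℝ := (th ^ P.kap j * P.dl j) ^ (2 * q) with hc
  have hc0 : 0 < c := by positivity
  let Q : E → Finset E → Finset E → Finset E → ℝ := fun b V R I =>
    thin P.g R fun G => thin P.n (R \ G) fun N =>
      ind (b ∈ K V R I \ core D P R I j (K V R I) ∧
        rel D P.t (P.dl j) (P.kap j) I (st V R I b) b (G ∪ N))
  have h1 : PR (E := E) p s₁ s₂ (fun V R I => thin P.g R fun G => thin P.n (R \ G) fun N =>
      ind (∃ b ∈ K V R I \ core D P R I j (K V R I),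
        rel D P.t (P.dl j) (P.kap j) I (st V R I b) b (G ∪ N))) ≤
      ∑ b : E, PR p s₁ s₂ (Q b) := by
    rw [← PR_sum]
    refine PR_mono hp hs₁ hs₂ hsum fun V R I _ _ _ => ?_
    simp only [Q]
    rw [← thin_sum]
    refine thin_mono hg hg1 fun G _ => ?_
    rw [← thin_sum]
    refine thin_mono hn hn1 fun N _ => ?_
    by_cases h : ∃ b ∈ K V R I \ core D P R I j (K V R I),
        rel D P.t (P.dl j) (P.kap j) I (st V R I b) b (G ∪ N)
    · obtain ⟨b, hb, hr⟩ := h
      rw [ind_true ⟨b, hb, hr⟩]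
      have h2 : ind (b ∈ K V R I \ core D P R I j (K V R I) ∧
        rel D P.t (P.dl j) (P.kap j) I (st V R I b) b (G ∪ N)) = 1 := ind_true ⟨hb, hr⟩
      rw [← h2]
      exact single_le_sum (f := fun b => ind (b ∈ K V R I \ core D P R I j (K V R I) ∧
        rel D P.t (P.dl j) (P.kap j) I (st V R I b) b (G ∪ N)))
        (fun i _ => ind_nonneg _) (mem_univ b)
    · rw [ind_false h]
      exact sum_nonneg fun _ _ => ind_nonneg _
  have hlarge : ∀ b, PR p s₁ s₂ (Q b) ≤ P.eta j := by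
    intro b
    rw [← PR_const (E := E) p s₁ s₂ (P.eta j)]
    refine PR_mono hp hs₁ hs₂ hsum fun V R I _ _ _ => ?_
    by_cases hb : b ∈ K V R I \ core D P R I j (K V R I)
    · have h2 := (hst V R I b hb).2
      unfold sig at h2
      push Not at h2
      refine le_trans ?_ h2.le
      unfold rho
      refine thin_mono hg hg1 fun G _ => thin_mono hn hn1 fun N _ => ind_mono fun h => h.2
    · have h2 : Q b V R I = 0 := by
        simp only [Q]
        have : ∀ G N : Finset E, ind (b ∈ K V R I \ core D P R I j (K V R I) ∧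
          rel D P.t (P.dl j) (P.kap j) I (st V R I b) b (G ∪ N)) = 0 :=
          fun G N => ind_false fun h => hb h.1
        simp only [this, thin_const]
      rw [h2]; exact heta
  have hsmall : ∀ b, PR p s₁ s₂ (Q b) ≤ Jn D T b ^ q / c := by
    intro b
    rw [le_div_iff₀ hc0, mul_comm]
    refine le_trans ?_ (hc_use hHC (by omega) hp hs₁ hs₂ hsum hg hg1 hn hn1 ht ht1 hth.le hth1 hone
      D b (P.kap j) hdl.le)
    refine mul_le_mul_of_nonneg_left ?_ hc0.le
    refine PR_mono hp hs₁ hs₂ hsum fun V R I _ _ _ => ?_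
    refine thin_mono hg hg1 fun G _ => thin_mono hn hn1 fun N _ => ind_mono fun h => ?_
    exact hcev_of_rel (((hst V R I b h.1).1).trans (hK V R I)) h.2
  have hterm : ∀ b, PR p s₁ s₂ (Q b) ≤ Jn D T b ^ 2 * (P.eta j / ga ^ 2 + ga ^ (q - 2) / c) := by
    intro b
    rcases le_or_gt ga (Jn D T b) with h | h
    · refine (hlarge b).trans ?_
      have h3 : 1 ≤ Jn D T b ^ 2 / ga ^ 2 := by
        rw [one_le_div (by positivity)]
        exact pow_le_pow_left₀ hga.le h 2
      have h4 : 0 ≤ Jn D T b ^ 2 * (ga ^ (q - 2) / c) := by positivity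
      have h5 : P.eta j ≤ Jn D T b ^ 2 * (P.eta j / ga ^ 2) := by
        have : Jn D T b ^ 2 * (P.eta j / ga ^ 2) = (Jn D T b ^ 2 / ga ^ 2) * P.eta j := by ring
        rw [this]
        nlinarith
      rw [mul_add]
      linarith
    · refine (hsmall b).trans ?_
      have h3 : Jn D T b ^ q ≤ Jn D T b ^ 2 * ga ^ (q - 2) := by
        obtain ⟨k, rfl⟩ := Nat.exists_eq_add_of_le hq
        rw [Nat.add_sub_cancel_left, pow_add]
        exact mul_le_mul_of_nonneg_left (pow_le_pow_left₀ (hJ0 b) h.le k) (sq_nonneg _)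
      have h4 : Jn D T b ^ q / c ≤ Jn D T b ^ 2 * (ga ^ (q - 2) / c) := by
        rw [← mul_div_assoc]
        exact div_le_div_of_nonneg_right h3 hc0.le
      have h5 : 0 ≤ Jn D T b ^ 2 * (P.eta j / ga ^ 2) := by positivity
      rw [mul_add]
      linarith
  refine h1.trans ((sum_le_sum fun b _ => hterm b).trans ?_)
  rw [← sum_mul]
  refine mul_le_mul_of_nonneg_right hS ?_
  positivity

end Vale.Agent.P331.H923
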